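import Vale.Agent.P062.Strategy

namespace Vale.Agent.Results.P062.Snaky

/-- The hexomino Snaky. -/
def snaky : Set (ℤ × ℤ) := {(0, 0), (1, 0), (2, 0), (3, 0), (3, 1), (4, 1)}

/-- `R` is one of the eight maps of `ℤ²` given by a `2 × 2` signed permutation matrix. -/
def IsSignedPerm (R : ℤ × ℤ → ℤ × ℤ) : Prop :=
  ∃ a b : ℤ, (a = 1 ∨ a = -1) ∧ (b = 1 ∨ b = -1) ∧
    ((∀ c, R c = (a * c.1, b * c.2)) ∨ (∀ c, R c = (a * c.2, b * c.1)))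

/-- The set of cells `M` contains an allowed copy `t + R(S)` of Snaky. -/
def OwnsCopy (M : Set (ℤ × ℤ)) : Prop :=
  ∃ (t : ℤ × ℤ) (R : ℤ × ℤ → ℤ × ℤ), IsSignedPerm R ∧ ∀ c ∈ snaky, t + R c ∈ M

/-- Maker's move number `k` (from `0`) when Maker follows the strategy `σ` and Breaker's moves
are `β 0, β 1, …`: the strategy sees only Breaker's first `k` moves. -/
def makerMove (σ : List (ℤ × ℤ) → ℤ × ℤ) (β : ℕ → ℤ × ℤ) (k : ℕ) : ℤ × ℤ :=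
  σ ((List.range k).map β)

theorem result :
    ∃ (σ : List (ℤ × ℤ) → ℤ × ℤ) (N : ℕ), ∀ β : ℕ → ℤ × ℤ,
      (∀ k, ∀ i < k, makerMove σ β k ≠ makerMove σ β i ∧ makerMove σ β k ≠ β i) ∧
      ((∀ k, (∀ i ≤ k, β k ≠ makerMove σ β i) ∧ ∀ i < k, β k ≠ β i) →
        OwnsCopy {c | ∃ i < N, makerMove σ β i = c}) := by
  obtain ⟨N, hN⟩ : ∃ N, Vale.Agent.P062.WinsIn N ∅ ∅ := ⟨_, Vale.Agent.P062.wins⟩
  refine ⟨Vale.Agent.P062.strat N, N, fun β => ⟨Vale.Agent.P062.strat_legal N β, fun hβ => ?_⟩⟩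
  have h := Vale.Agent.P062.strat_wins N hN β hβ N le_rfl
  rw [Nat.sub_self] at h
  obtain ⟨t, a, b, sw, ha, hb, h⟩ := h
  refine ⟨t, Vale.Agent.P062.sp a b sw, ?_, fun c hc => ?_⟩
  · cases sw
    · exact ⟨a, b, ha, hb, Or.inl fun c => rfl⟩
    · exact ⟨b, a, hb, ha, Or.inr fun c => rfl⟩
  · exact (Vale.Agent.P062.mem_Mk N β _ N).1 (h c (by simpa [snaky] using hc))

end Vale.Agent.Results.P062.Snaky
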